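import Vale.Agent.P032.S5.H724.Ex
import Vale.Agent.P032.S5.H724.TabA

/-!
# P032: the twelve points of a beta pair at one time give options of the finite table

`H724.Tab`: an option of a position is (letter before, letter after, palette).
-/

open Set Filter Topology Metric

noncomputable section

namespace Vale.Agent.P032.S5.H240

open Vale.Agent.P032.Six Vale.Agent.P032.S5.H767 Vale.Agent.P032.Words
open Vale.Agent.P032.S5.H724 Vale.Agent.P032.S5.H724.Tab

/-! ### Masks -/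

def mkB (β : Fin 6 → Bool) : ℕ := ∑ i : Fin 6, bif β i then 2 ^ (i : ℕ) else 0

theorem mkB_spec : ∀ β : Fin 6 → Bool, mkB β < 64 ∧ ∀ i : Fin 6, (mkB β).testBit i = β i := by
  decide +kernel

open Classical in
/-- the mask of a set of colours, `n` the names -/
def mk (n : Fin 6 → Fin 6) (s : Set (Fin 6)) : ℕ := mkB fun i => decide (n i ∈ s)

theorem mk_lt (n : Fin 6 → Fin 6) (s : Set (Fin 6)) : mk n s < 64 := (mkB_spec _).1

theorem mk_bit (n : Fin 6 → Fin 6) (s : Set (Fin 6)) (i : Fin 6) :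
    (mk n s).testBit i = true ↔ n i ∈ s := by
  unfold mk
  rw [(mkB_spec _).2]
  simp

theorem bits_ext {x y : ℕ} (hx : x < 64) (hy : y < 64)
    (h : ∀ i : Fin 6, x.testBit i = y.testBit i) : x = y := by
  apply Nat.eq_of_testBit_eq
  intro i
  by_cases hi : i < 6
  · exact h ⟨i, hi⟩
  · have h1 : (64 : ℕ) ≤ 2 ^ i := by
      calc (64 : ℕ) = 2 ^ 6 := by norm_num
        _ ≤ 2 ^ i := Nat.pow_le_pow_right (by norm_num) (by omega)
    rw [Nat.testBit_lt_two_pow (lt_of_lt_of_le hx h1), Nat.testBit_lt_two_pow (lt_of_lt_of_le hy h1)]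

theorem land_lt {x : ℕ} (y : ℕ) (hx : x < 64) : Nat.land x y < 64 :=
  lt_of_le_of_lt (show x &&& y ≤ x from Nat.and_le_left) hx

theorem land_bit (x y i : ℕ) : (Nat.land x y).testBit i = (x.testBit i && y.testBit i) :=
  Nat.testBit_and x y i

theorem land_zero {x y : ℕ} (hx : x < 64) (h : ∀ i : Fin 6, x.testBit i = true → y.testBit i = true → False) :
    Nat.land x y = 0 := by
  apply bits_ext (land_lt y hx) (by norm_num)
  intro i
  rw [land_bit, Nat.zero_testBit]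
  cases h1 : x.testBit i with
  | false => rfl
  | true => cases h2 : y.testBit i with
    | false => rfl
    | true => exact (h i h1 h2).elim

theorem of_land_zero {x y : ℕ} (h : Nat.land x y = 0) (i : ℕ) (h1 : x.testBit i = true)
    (h2 : y.testBit i = true) : False := by
  have h3 := land_bit x y i
  rw [h, h1, h2, Nat.zero_testBit] at h3
  exact Bool.false_ne_true h3

theorem of_land_eq {x y : ℕ} (h : Nat.land x y = x) (i : ℕ) (h1 : x.testBit i = true) :
    y.testBit i = true := by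
  have h3 := land_bit x y i
  rw [h, h1] at h3
  simpa using h3.symm

theorem one_spec : ∀ x < 64, one x = true → ∃ i : Fin 6, ∀ j : Fin 6, x.testBit j = true ↔ j = i := by
  decide +kernel

theorem two_spec : ∀ x < 64, two x = true → ∃ i j : Fin 6, ∀ k : Fin 6, x.testBit k = true ↔ k = i ∨ k = j := by
  decide +kernel

/-- `t` without `q` -/
theorem xor_bit {t q : ℕ} (i : ℕ) :
    (Nat.xor t (Nat.land t q)).testBit i = (t.testBit i && !q.testBit i) := by
  have h1 : (Nat.xor t (Nat.land t q)).testBit i = (t.testBit i ^^ (Nat.land t q).testBit i) :=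
    Nat.testBit_xor t _ i
  rw [h1, land_bit]
  cases t.testBit i <;> cases q.testBit i <;> rfl

theorem xor_lt {t q : ℕ} (ht : t < 64) : Nat.xor t (Nat.land t q) < 64 :=
  Nat.xor_lt_two_pow (n := 6) ht (land_lt q ht)

/-! ### codes -/

theorem code_spec : ∀ w < 64, ∀ α β : Bool,
    Nat.land (Nat.add (Nat.add 256 w) (Nat.add (bif α then 0 else 64) (bif β then 0 else 128))) 63 = w ∧
    (∀ i : Fin 6, (Nat.add (Nat.add 256 w) (Nat.add (bif α then 0 else 64)
      (bif β then 0 else 128))).testBit i = w.testBit i) ∧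
    (Nat.add (Nat.add 256 w) (Nat.add (bif α then 0 else 64) (bif β then 0 else 128))).testBit 6 = !α ∧
    (Nat.add (Nat.add 256 w) (Nat.add (bif α then 0 else 64) (bif β then 0 else 128))).testBit 7 = !β := by
  decide +kernel

theorem sm_spec {p q : Op} (hE : E p q = true) (hp : p.2.2 < 64) :
    Nat.land (sm p q) 63 = Nat.land p.2.2 q.2.2 ∧
    (∀ i : Fin 6, (sm p q).testBit i = (Nat.land p.2.2 q.2.2).testBit i) ∧
    ((sm p q).testBit 6 = true ↔ Nat.land q.1 p.2.1 ≠ 0) ∧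
    ((sm p q).testBit 7 = true ↔ Nat.land p.1 q.2.1 ≠ 0) := by
  obtain ⟨h1, h2, h3, h4⟩ := code_spec _ (land_lt q.2.2 hp) (Nat.beq (Nat.land q.1 p.2.1) 0)
    (Nat.beq (Nat.land p.1 q.2.1) 0)
  unfold sm
  rw [hE, cond_true]
  refine ⟨h1, h2, ?_, ?_⟩
  · rw [h3, Bool.not_eq_true', ← Bool.not_eq_true, Nat.beq_eq]
  · rw [h4, Bool.not_eq_true', ← Bool.not_eq_true, Nat.beq_eq]

/-! ### Geometry of the twelve points -/

theorem shift_one (c : ℂ) (v : ℝ) (j : Fin 6) :
    pt c (v + ((j + 1).val : ℝ)) = pt c (v + 1 + (j.val : ℝ)) := by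
  rw [Fam.pt_succ]; congr 1; ring

theorem w_facts (c : ℂ) (u : ℝ) (k : Fin 6) :
    pt c (u + ((k + 2).val : ℝ)) = pt c (u + ((k + 1).val : ℝ)) + c - pt c (u + (k.val : ℝ)) ∧
    pt c (u + ((k + 3).val : ℝ)) = 2 * c - pt c (u + (k.val : ℝ)) ∧
    pt c (u + ((k + 4).val : ℝ)) = 2 * c - pt c (u + ((k + 1).val : ℝ)) ∧
    pt c (u + ((k + 5).val : ℝ)) = pt c (u + (k.val : ℝ)) + c - pt c (u + ((k + 1).val : ℝ)) := by
  have e2 : ∀ k : Fin 6, k + 2 = k + 1 + 1 := by decide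
  have h2 : ∀ k : Fin 6, pt c (u + ((k + 2).val : ℝ)) =
      pt c (u + ((k + 1).val : ℝ)) + c - pt c (u + (k.val : ℝ)) := by
    intro k
    have h := pt_sum c (u + (k.val : ℝ))
    rw [e2, shift_one, shift_one, shift_one]
    have e3 : u + (k.val : ℝ) + 2 = u + 1 + 1 + (k.val : ℝ) := by ring
    have e4 : u + (k.val : ℝ) + 1 = u + 1 + (k.val : ℝ) := by ring
    rw [e3, e4] at h
    linear_combination h
  have h3 : ∀ k : Fin 6, pt c (u + ((k + 3).val : ℝ)) = 2 * c - pt c (u + (k.val : ℝ)) := by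
    intro k
    rw [Fam.pt_add_three, pt_three]
  refine ⟨h2 k, h3 k, ?_, ?_⟩
  · have e : k + 4 = k + 1 + 3 := by
      have : ∀ k : Fin 6, k + 4 = k + 1 + 3 := by decide
      exact this k
    rw [e, h3]
  · have e : k + 5 = k + 2 + 3 := by
      have : ∀ k : Fin 6, k + 5 = k + 2 + 3 := by decide
      exact this k
    rw [e, h3, h2]; ring

/-- the three neighbours of a position -/
def Nb (p : Fin 6 × Bool) : Fin 3 → Fin 6 × Bool := ![(p.1 + 1, p.2), (p.1 + 5, p.2), (p.1, !p.2)]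

variable {U : Fin 6 → Set ℂ} {T : ℂ → Set (Fin 6)} {z v : ℂ} {a b c d e f : Fin 6}

/-- the two centres of a beta pair -/
def FB (C : Ctr U T z a b c d e f) (C' : Ctr U T v a c b e d f) : Fam U T Bool where
  cen s := bif s then v else z
  nm s := bif s then ![a, c, b, e, d, f] else ![a, b, c, d, e, f]
  ctr s := by
    cases s
    · exact C
    · exact C'

/-- the names -/
def N6 (a b c d e f : Fin 6) : Fin 6 → Fin 6 := ![a, b, c, d, e, f]

/-- the points -/
def Pt (z v : ℂ) (u : ℝ) (p : Fin 6 × Bool) : ℂ := pt (bif p.2 then v else z) (u + (p.1.val : ℝ))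

/-- the centre of a position -/
def Cn (z v : ℂ) (p : Fin 6 × Bool) : ℂ := bif p.2 then v else z

theorem ns_all {u : ℝ} (hns : ∀ k : Fin 6, pt z (u + (k.val : ℝ)) ≠ v) (p : Fin 6 × Bool) :
    Pt z v u p ≠ Cn z v (p.1, !p.2) := by
  obtain ⟨k, s⟩ := p
  cases s
  · exact hns k
  · intro h
    have h : pt v (u + (k.val : ℝ)) = z := h
    apply hns (k + 3)
    rw [(w_facts z u k).2.1]
    have : pt z (u + (k.val : ℝ)) = pt v (u + (k.val : ℝ)) + (z - v) := by unfold pt; ring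
    rw [this, h]; ring

theorem geo (hzv : dist z v = 1) {u : ℝ} (hns : ∀ k : Fin 6, pt z (u + (k.val : ℝ)) ≠ v)
    (p : Fin 6 × Bool) :
    dist (Pt z v u p) (Cn z v p) = 1 ∧
    (∀ i, dist (Pt z v u p) (Pt z v u (Nb p i)) = 1) ∧
    (∀ i, Pt z v u (Nb p i) ≠ Cn z v p ∧ Pt z v u (Nb p i) + Cn z v p ≠ 2 * Pt z v u p) ∧
    ∀ i j, i ≠ j → Pt z v u (Nb p j) ≠ Pt z v u (Nb p i) ∧
      Pt z v u (Nb p j) + Pt z v u (Nb p i) ≠ 2 * Pt z v u p := by
  have n0 := ns_all hns p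
  have n1 := ns_all hns (p.1 + 1, p.2)
  have n2 := ns_all hns (p.1 + 2, p.2)
  have n3 := ns_all hns (p.1 + 3, p.2)
  have n4 := ns_all hns (p.1 + 4, p.2)
  have n5 := ns_all hns (p.1 + 5, p.2)
  have hd0 : dist (Pt z v u p) (Cn z v p) = 1 := dist_pt _ _
  have hd1 : dist (Pt z v u (Nb p 0)) (Cn z v p) = 1 := dist_pt _ _
  have hd5 : dist (Pt z v u (Nb p 1)) (Cn z v p) = 1 := dist_pt _ _
  obtain ⟨w2, w3, w4, w5⟩ := w_facts (Cn z v p) u p.1
  have q1 : Pt z v u (Nb p 0) = pt (Cn z v p) (u + ((p.1 + 1).val : ℝ)) := rfl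
  have q0 : Pt z v u p = pt (Cn z v p) (u + (p.1.val : ℝ)) := rfl
  have q5 : Pt z v u (Nb p 1) = pt (Cn z v p) (u + ((p.1 + 5).val : ℝ)) := rfl
  have m1 : Pt z v u (p.1 + 1, p.2) = Pt z v u (Nb p 0) := rfl
  have m2 : Pt z v u (p.1 + 2, p.2) = pt (Cn z v p) (u + ((p.1 + 2).val : ℝ)) := rfl
  have m3 : Pt z v u (p.1 + 3, p.2) = pt (Cn z v p) (u + ((p.1 + 3).val : ℝ)) := rfl
  have m4 : Pt z v u (p.1 + 4, p.2) = pt (Cn z v p) (u + ((p.1 + 4).val : ℝ)) := rfl
  have m5 : Pt z v u (p.1 + 5, p.2) = Pt z v u (Nb p 1) := rfl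
  have c' : ∀ k, Cn z v (k, !p.2) = Cn z v (p.1, !p.2) := fun k => rfl
  rw [m1] at n1
  rw [m2, w2, ← q1, ← q0] at n2
  rw [m3, w3, ← q0] at n3
  rw [m4, w4, ← q1] at n4
  rw [m5] at n5
  rw [w5, ← q1, ← q0] at q5
  change Pt z v u (Nb p 0) ≠ Cn z v (p.1, !p.2) at n1
  change Pt z v u (Nb p 0) + Cn z v p - Pt z v u p ≠ Cn z v (p.1, !p.2) at n2
  change 2 * Cn z v p - Pt z v u p ≠ Cn z v (p.1, !p.2) at n3
  change 2 * Cn z v p - Pt z v u (Nb p 0) ≠ Cn z v (p.1, !p.2) at n4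
  change Pt z v u (Nb p 1) ≠ Cn z v (p.1, !p.2) at n5
  have q2 : Pt z v u (Nb p 2) = Pt z v u p + (Cn z v (p.1, !p.2) - Cn z v p) := by
    show pt (Cn z v (p.1, !p.2)) (u + (p.1.val : ℝ)) = pt (Cn z v p) (u + (p.1.val : ℝ)) +
      (Cn z v (p.1, !p.2) - Cn z v p)
    unfold pt; ring
  have hcc : dist (Cn z v (p.1, !p.2)) (Cn z v p) = 1 := by
    obtain ⟨k, s⟩ := p
    cases s
    · show dist v z = 1
      rw [dist_comm]; exact hzv
    · exact hzv
  have hd : ∀ x : ℂ, x + Cn z v p = 2 * Pt z v u p → dist x (Cn z v p) = 1 → False := by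
    intro x h1 h2
    have h3 : x - Cn z v p = 2 * (Pt z v u p - Cn z v p) := by linear_combination h1
    rw [dist_eq_norm, h3, norm_mul, ← dist_eq_norm, hd0] at h2
    norm_num at h2
  have hne : ∀ x : ℂ, dist x (Cn z v p) = 1 → x ≠ Cn z v p := by
    intro x h1 h2
    rw [h2, dist_self] at h1; exact zero_ne_one h1
  obtain ⟨o1, o2⟩ := pt_off (Cn z v p) (u + ((p.1 + 5).val : ℝ))
  have r0 : pt (Cn z v p) (u + ((p.1 + 5).val : ℝ) + 1) = Pt z v u p := by
    have e : u + ((p.1 + 5).val : ℝ) + 1 = u + 1 + ((p.1 + 5).val : ℝ) := by ring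
    have e2 : p.1 + 5 + 1 = p.1 := by
      have : ∀ k : Fin 6, k + 5 + 1 = k := by decide
      exact this p.1
    rw [e, ← shift_one, e2]; rfl
  have r1 : pt (Cn z v p) (u + ((p.1 + 5).val : ℝ) + 2) = Pt z v u (Nb p 0) := by
    have e : u + ((p.1 + 5).val : ℝ) + 2 = u + 1 + 1 + ((p.1 + 5).val : ℝ) := by ring
    have e2 : p.1 + 5 + 1 + 1 = p.1 + 1 := by
      have : ∀ k : Fin 6, k + 5 + 1 + 1 = k + 1 := by decide
      exact this p.1
    rw [e, ← shift_one, ← shift_one, e2]; rfl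
  rw [r1] at o1 o2
  rw [r0] at o2
  change Pt z v u (Nb p 0) ≠ Pt z v u (Nb p 1) at o1
  change Pt z v u (Nb p 0) + Pt z v u (Nb p 1) ≠ 2 * Pt z v u p at o2
  refine ⟨hd0, ?_, ?_, ?_⟩
  · intro i
    fin_cases i
    · show dist (Pt z v u p) (Pt z v u (Nb p 0)) = 1
      have := dist_pt_one (Cn z v p) (u + (p.1.val : ℝ))
      have e : u + (p.1.val : ℝ) + 1 = u + 1 + (p.1.val : ℝ) := by ring
      rw [e, ← shift_one] at this
      exact this
    · show dist (Pt z v u p) (Pt z v u (Nb p 1)) = 1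
      rw [q5, dist_eq_norm]
      have : Pt z v u p - (Pt z v u p + Cn z v p - Pt z v u (Nb p 0)) =
        Pt z v u (Nb p 0) - Cn z v p := by ring
      rw [this, ← dist_eq_norm]; exact hd1
    · show dist (Pt z v u p) (Pt z v u (Nb p 2)) = 1
      rw [q2, dist_comm, dist_eq_norm]
      have : Pt z v u p + (Cn z v (p.1, !p.2) - Cn z v p) - Pt z v u p =
        Cn z v (p.1, !p.2) - Cn z v p := by ring
      rw [this, ← dist_eq_norm]; exact hcc
  · intro i
    fin_cases i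
    · exact ⟨hne _ hd1, fun h => hd _ h hd1⟩
    · exact ⟨hne _ hd5, fun h => hd _ h hd5⟩
    · show Pt z v u (Nb p 2) ≠ Cn z v p ∧ Pt z v u (Nb p 2) + Cn z v p ≠ 2 * Pt z v u p
      rw [q2]
      exact ⟨fun h => n3 (by linear_combination -h), fun h => n0 (by linear_combination -h)⟩
  · intro i j hij
    fin_cases i <;> fin_cases j
    · exact absurd rfl hij
    · show Pt z v u (Nb p 1) ≠ Pt z v u (Nb p 0) ∧ Pt z v u (Nb p 1) + Pt z v u (Nb p 0) ≠ _
      exact ⟨o1.symm, fun h => o2 (by rw [← h]; ring)⟩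
    · show Pt z v u (Nb p 2) ≠ Pt z v u (Nb p 0) ∧ Pt z v u (Nb p 2) + Pt z v u (Nb p 0) ≠ _
      rw [q2]
      refine ⟨fun h => n2 (by linear_combination -h), fun h => n5 ?_⟩
      rw [q5]; linear_combination -h
    · show Pt z v u (Nb p 0) ≠ Pt z v u (Nb p 1) ∧ Pt z v u (Nb p 0) + Pt z v u (Nb p 1) ≠ _
      exact ⟨o1, o2⟩
    · exact absurd rfl hij
    · show Pt z v u (Nb p 2) ≠ Pt z v u (Nb p 1) ∧ Pt z v u (Nb p 2) + Pt z v u (Nb p 1) ≠ _
      rw [q2, q5]
      exact ⟨fun h => n4 (by linear_combination -h), fun h => n1 (by linear_combination -h)⟩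
    · show Pt z v u (Nb p 0) ≠ Pt z v u (Nb p 2) ∧ Pt z v u (Nb p 0) + Pt z v u (Nb p 2) ≠ _
      rw [q2]
      refine ⟨fun h => n2 (by linear_combination h), fun h => n5 ?_⟩
      rw [q5]; linear_combination -h
    · show Pt z v u (Nb p 1) ≠ Pt z v u (Nb p 2) ∧ Pt z v u (Nb p 1) + Pt z v u (Nb p 2) ≠ _
      rw [q2, q5]
      exact ⟨fun h => n4 (by linear_combination h), fun h => n1 (by linear_combination -h)⟩
    · exact absurd rfl hij

end Vale.Agent.P032.S5.H240
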