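import Vale.Agent.P032.S5.H240.Opt

/-!
# P032: options of the twelve points (2)
-/

open Set Filter Topology Metric

noncomputable section

namespace Vale.Agent.P032.S5.H240

open Vale.Agent.P032.Six Vale.Agent.P032.S5.H767 Vale.Agent.P032.Words
open Vale.Agent.P032.S5.H724 Vale.Agent.P032.S5.H724.Tab

/-- the names of the colours of the letters -/
def LS (s : Bool) : Fin 4 → Finset (Fin 6) :=
  bif s then ![{3}, {5}, {0, 2}, {1, 4}] else ![{4}, {5}, {0, 1}, {2, 3}]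

/-- the masks of the letters -/
def LM (s : Bool) (l : Fin 4) : ℕ := bif s then ![8, 32, 5, 18] l else ![16, 32, 3, 12] l

theorem LM_eq : ∀ (s : Bool) (l : Fin 4), mkB (fun i => decide (i ∈ LS s l)) = LM s l := by
  decide +kernel

theorem LM_bit (s : Bool) (l : Fin 4) (i : Fin 6) : (LM s l).testBit i = true ↔ i ∈ LS s l := by
  rw [← LM_eq, (mkB_spec _).2]; simp

theorem LM_lt (s : Bool) (l : Fin 4) : LM s l < 64 := by
  rw [← LM_eq]; exact (mkB_spec _).1

theorem LM_inj : ∀ (s : Bool) (l m : Fin 4), l ≠ m → ∀ i, i ∈ LS s l → i ∉ LS s m := by decide +kernel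

theorem LS_ne : ∀ (s : Bool) (l : Fin 4), ∃ i, i ∈ LS s l := by decide +kernel

theorem mem_stat : ∀ (l : Fin 4), (LM false l, LM false l, 0) ∈ oz ∧
    (LM true l, LM true l, 0) ∈ ov := by decide +kernel

theorem mem_oz : ∀ β : Fin 6 → Bool, (Finset.univ.filter fun i => β i = true).card ≤ 3 →
    ∀ l1 : Fin 4, (∀ i ∈ LS false l1, β i = true) → ∀ l2 : Fin 4, l1 ≠ l2 →
    (∀ i ∈ LS false l2, β i = true) → ∀ lx : Fin 4, (∀ i ∈ LS false lx, β i = true) →
    ∀ ly : Fin 4, (∀ i ∈ LS false ly, β i = true) →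
    (LM false lx, LM false ly, mkB β) ∈ oz := by decide +kernel

theorem mem_ov : ∀ β : Fin 6 → Bool, (Finset.univ.filter fun i => β i = true).card ≤ 3 →
    ∀ l1 : Fin 4, (∀ i ∈ LS true l1, β i = true) → ∀ l2 : Fin 4, l1 ≠ l2 →
    (∀ i ∈ LS true l2, β i = true) → ∀ lx : Fin 4, (∀ i ∈ LS true lx, β i = true) →
    ∀ ly : Fin 4, (∀ i ∈ LS true ly, β i = true) →
    (LM true lx, LM true ly, mkB β) ∈ ov := by decide +kernel

variable {U : Fin 6 → Set ℂ} {T : ℂ → Set (Fin 6)} {z v : ℂ} {a b c d e f : Fin 6}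

theorem N6_inj (hn : [a, b, c, d, e, f].Nodup) : Function.Injective (N6 a b c d e f) := by
  have h : [a, b, c, d, e, f] = List.ofFn (N6 a b c d e f) := rfl
  rw [h] at hn
  exact List.nodup_ofFn.1 hn

theorem cl_image (C : Ctr U T z a b c d e f) (C' : Ctr U T v a c b e d f) (s : Bool) (l : Fin 4) :
    (FB C C').cl s l = N6 a b c d e f '' (↑(LS s l) : Set (Fin 6)) := by
  cases s <;> fin_cases l
  · show ({e} : Set (Fin 6)) = N6 a b c d e f '' (↑({4} : Finset (Fin 6)) : Set (Fin 6))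
    rw [Finset.coe_singleton, image_singleton]; rfl
  · show ({f} : Set (Fin 6)) = N6 a b c d e f '' (↑({5} : Finset (Fin 6)) : Set (Fin 6))
    rw [Finset.coe_singleton, image_singleton]; rfl
  · show ({a, b} : Set (Fin 6)) = N6 a b c d e f '' (↑({0, 1} : Finset (Fin 6)) : Set (Fin 6))
    rw [Finset.coe_insert, Finset.coe_singleton, image_pair]; rfl
  · show ({c, d} : Set (Fin 6)) = N6 a b c d e f '' (↑({2, 3} : Finset (Fin 6)) : Set (Fin 6))
    rw [Finset.coe_insert, Finset.coe_singleton, image_pair]; rfl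
  · show ({d} : Set (Fin 6)) = N6 a b c d e f '' (↑({3} : Finset (Fin 6)) : Set (Fin 6))
    rw [Finset.coe_singleton, image_singleton]; rfl
  · show ({f} : Set (Fin 6)) = N6 a b c d e f '' (↑({5} : Finset (Fin 6)) : Set (Fin 6))
    rw [Finset.coe_singleton, image_singleton]; rfl
  · show ({a, c} : Set (Fin 6)) = N6 a b c d e f '' (↑({0, 2} : Finset (Fin 6)) : Set (Fin 6))
    rw [Finset.coe_insert, Finset.coe_singleton, image_pair]; rfl
  · show ({b, e} : Set (Fin 6)) = N6 a b c d e f '' (↑({1, 4} : Finset (Fin 6)) : Set (Fin 6))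
    rw [Finset.coe_insert, Finset.coe_singleton, image_pair]; rfl

theorem mem_cl (C : Ctr U T z a b c d e f) (C' : Ctr U T v a c b e d f) (s : Bool) (l : Fin 4)
    (i : Fin 6) : N6 a b c d e f i ∈ (FB C C').cl s l ↔ (LM s l).testBit i = true := by
  rw [cl_image, (N6_inj C.nd).mem_set_image, LM_bit]
  exact Iff.rfl

theorem exists_name (C : Ctr U T z a b c d e f) (x : Fin 6) : ∃ i, N6 a b c d e f i = x :=
  (Finite.injective_iff_surjective.1 (N6_inj C.nd)) x

open Classical in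
theorem card_le (C : Ctr U T z a b c d e f) {s : Set (Fin 6)} (h : s.ncard ≤ 3) :
    (Finset.univ.filter fun i => decide (N6 a b c d e f i ∈ s) = true).card ≤ 3 := by
  have h1 : N6 a b c d e f '' (↑(Finset.univ.filter fun i => decide (N6 a b c d e f i ∈ s) = true) :
      Set (Fin 6)) ⊆ s := by
    rintro x ⟨i, hi, rfl⟩
    simpa using hi
  have h2 := Set.ncard_le_ncard h1 (Set.toFinite _)
  rw [Set.ncard_image_of_injective _ (N6_inj C.nd), Set.ncard_coe_finset] at h2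
  omega

section

variable (C : Ctr U T z a b c d e f) (C' : Ctr U T v a c b e d f)

/-- available letter -/
def Av (u : ℝ) (p : Fin 6 × Bool) (l : Fin 4) : Prop := l ∈ H324.PalX (FB C C').X u p

theorem av_sub {u : ℝ} {p : Fin 6 × Bool} {l : Fin 4} (h : Av C C' u p l) :
    (FB C C').cl p.2 l ⊆ T (Pt z v u p) := (FB C C').cl_sub h

/-- **(W)** -/
theorem W_of (hzv : dist z v = 1) {u : ℝ} (hns : ∀ k : Fin 6, pt z (u + (k.val : ℝ)) ≠ v)
    {p : Fin 6 × Bool} {l : Fin 4} (hl : ∀ m, Av C C' u p m → m = l) {x : Fin 6}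
    (hx : x ∈ (FB C C').cl p.2 l) (j : Fin 3) : x ∉ T (Pt z v u (Nb p j)) := by
  intro hxq
  obtain ⟨g0, g1, g2, -⟩ := geo hzv hns p
  have hnear := H324.palX_near (X := (FB C C').X) (FB C C').x_closed u
  have h1 : ∀ᶠ w in 𝓝 u, x ∈ T (pt (Cn z v p) (w + (p.1.val : ℝ))) := by
    filter_upwards [hnear] with w hw
    obtain ⟨m, hm⟩ := (FB C C').x_cover p.2 (w + (p.1.val : ℝ))
    have h2 := hl m (hw p hm)
    rw [h2] at hm
    exact (FB C C').cl_sub hm hx
  have h2 : ∀ᶠ w in 𝓝 (u + (p.1.val : ℝ)), x ∈ T (pt (Cn z v p) w) := by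
    have hc : Tendsto (fun w : ℝ => w - (p.1.val : ℝ)) (𝓝 (u + (p.1.val : ℝ))) (𝓝 u) := by
      have : Continuous fun w : ℝ => w - (p.1.val : ℝ) := by fun_prop
      have h3 := this.tendsto (u + (p.1.val : ℝ))
      rwa [add_sub_cancel_right] at h3
    filter_upwards [hc.eventually h1] with w hw
    rwa [sub_add_cancel] at hw
  have h3 := ev_circle (Cn z v p) (p := fun q => x ∈ T q) h2
  rcases C.irr.mx.partner_line g0 (h3.mono fun q hq => C.irr.sub q hq) (g1 j)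
    (C.irr.sub _ hxq) with h4 | h4
  · exact (g2 j).1 h4
  · exact (g2 j).2 h4

/-- a requirement comes from a neighbour -/
theorem confl {u : ℝ} {p q : Fin 6 × Bool} {x y : Fin 4}
    (h3 : ∀ p, (T (Pt z v u p)).ncard ≤ 3) (hx : Av C C' u p x) (hy : Av C C' u q y)
    (hR : ¬ ((FB C C').R p q x y ∧ (FB C C').R q p y x)) :
    (∃ i, q = Nb p i) ∧ (∃ i, p = Nb q i) ∧
      ¬ Disjoint ((FB C C').cl p.2 x) ((FB C C').cl q.2 y) := by
  have hsame : p.2 = q.2 → (q.1 = p.1 + 1 ∨ p.1 = q.1 + 1) →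
      (∃ i, q = Nb p i) ∧ (∃ i, p = Nb q i) := by
    intro h2 h1
    have key : ∀ k k' : Fin 6, k = k' + 1 → k' = k + 5 := by decide
    rcases h1 with h1 | h1
    · exact ⟨⟨0, Prod.ext h1 h2.symm⟩, ⟨1, Prod.ext (key _ _ h1) h2⟩⟩
    · exact ⟨⟨1, Prod.ext (key _ _ h1) h2.symm⟩, ⟨0, Prod.ext h1 h2⟩⟩
  have hprism : p.1 = q.1 → dist ((FB C C').cen p.2) ((FB C C').cen q.2) = 1 →
      (∃ i, q = Nb p i) ∧ (∃ i, p = Nb q i) := by
    intro h1 h2
    have h4 : p.2 ≠ q.2 := by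
      intro h; rw [h, dist_self] at h2; exact zero_ne_one h2
    have h5 : q.2 = !p.2 := by revert h4; cases p.2 <;> cases q.2 <;> simp
    have h6 : p.2 = !q.2 := by revert h4; cases p.2 <;> cases q.2 <;> simp
    exact ⟨⟨2, Prod.ext h1.symm h5⟩, ⟨2, Prod.ext h1 h6⟩⟩
  have hanti : ∀ (p q : Fin 6 × Bool) (x y : Fin 4), Av C C' u p x → Av C C' u q y → p.2 = q.2 →
      q.1 = p.1 + 3 → ¬ (x = 2 ∧ y = 3) ∧ ¬ (x = 3 ∧ y = 2) := by
    rintro ⟨k, s⟩ ⟨k', s'⟩ x y hx hy hs hk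
    obtain rfl : s = s' := hs
    obtain rfl : k' = k + 3 := hk
    have h33 : k = k + 3 + 3 := by
      have : ∀ k : Fin 6, k = k + 3 + 3 := by decide
      exact this k
    have hc1 := h3 (k, s)
    have hc2 := h3 (k + 3, s)
    constructor
    · rintro ⟨rfl, rfl⟩
      have k1 : u + (k.val : ℝ) ∈ (FB C C').X s 2 := hx
      have k2 : u + ((k + 3).val : ℝ) ∈ (FB C C').X s 3 := hy
      refine ((FB C C').ctr s).x_anti (u := u + (k.val : ℝ)) ?_ k1 ?_
      · exact hc1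
      · show pt ((FB C C').cen s) (u + (k.val : ℝ) + 3) ∈ Lt T ((FB C C').cen s)
          ((FB C C').nm s 0) ((FB C C').nm s 1) ((FB C C').nm s 2) ((FB C C').nm s 3)
          ((FB C C').nm s 4) ((FB C C').nm s 5) 3
        rw [← Fam.pt_add_three]; exact k2
    · rintro ⟨rfl, rfl⟩
      have k1 : u + (k.val : ℝ) ∈ (FB C C').X s 3 := hx
      have k2 : u + ((k + 3).val : ℝ) ∈ (FB C C').X s 2 := hy
      refine ((FB C C').ctr s).x_anti' (u := u + (k.val : ℝ)) ?_ k1 ?_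
      · exact hc1
      · show pt ((FB C C').cen s) (u + (k.val : ℝ) + 3) ∈ Lt T ((FB C C').cen s)
          ((FB C C').nm s 0) ((FB C C').nm s 1) ((FB C C').nm s 2) ((FB C C').nm s 3)
          ((FB C C').nm s 4) ((FB C C').nm s 5) 2
        rw [← Fam.pt_add_three]; exact k2
  have hneq : p.2 = q.2 → x = y → ¬ Disjoint ((FB C C').cl p.2 x) ((FB C C').cl q.2 y) := by
    intro h1 h2 hd
    obtain ⟨i, hi⟩ := (FB C C').cl_nonempty p.2 x
    refine Set.disjoint_left.1 hd hi ?_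
    rw [← h1, ← h2]; exact hi
  by_contra hcon
  apply hR
  refine ⟨⟨fun h1 h2 => ?_, fun h1 h2 => ?_, fun h1 h2 => ?_⟩,
    ⟨fun h1 h2 => ?_, fun h1 h2 => ?_, fun h1 h2 => ?_⟩⟩
  · intro hxy
    obtain ⟨e1, e2⟩ := hsame h1 h2
    exact hcon ⟨e1, e2, hneq h1 hxy⟩
  · exact hanti p q x y hx hy h1 h2
  · by_contra hnd
    obtain ⟨e1, e2⟩ := hprism h1 h2
    exact hcon ⟨e1, e2, hnd⟩
  · intro hxy
    obtain ⟨e1, e2⟩ := hsame h1.symm h2.symm
    exact hcon ⟨e1, e2, hneq h1.symm hxy.symm⟩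
  · exact hanti q p y x hy hx h1 h2
  · by_contra hnd
    obtain ⟨e1, e2⟩ := hprism h1.symm (by rw [dist_comm]; exact h2)
    exact hcon ⟨e1, e2, fun h => hnd h.symm⟩

end

end Vale.Agent.P032.S5.H240
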