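import Vale.Agent.P032.S5.H240.Opt2

/-!
# P032: options of the twelve points (3)
-/

open Set Filter Topology Metric

noncomputable section

namespace Vale.Agent.P032.S5.H240

open Vale.Agent.P032.Six Vale.Agent.P032.S5.H767 Vale.Agent.P032.Words
open Vale.Agent.P032.S5.H724 Vale.Agent.P032.S5.H724.Tab

theorem land_192 {x : ℕ} (h6 : x.testBit 6 = true) (h7 : x.testBit 7 = true) :
    Nat.land x 192 = 192 := by
  apply Nat.eq_of_testBit_eq
  intro i
  rw [land_bit]
  by_cases hi : i < 8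
  · have h : ∀ j < 8, (192 : ℕ).testBit j = (decide (j = 6) || decide (j = 7)) := by decide
    rw [h i hi]
    by_cases e6 : i = 6
    · rw [e6, h6]; rfl
    · by_cases e7 : i = 7
      · rw [e7, h7]; rfl
      · simp [e6, e7]
  · have h1 : (192 : ℕ) < 2 ^ i := by
      calc (192 : ℕ) < 2 ^ 8 := by norm_num
        _ ≤ 2 ^ i := Nat.pow_le_pow_right (by norm_num) (by omega)
    rw [Nat.testBit_lt_two_pow h1, Bool.and_false]

theorem lor_bit (x y i : ℕ) : (Nat.lor x y).testBit i = (x.testBit i || y.testBit i) :=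
  Nat.testBit_or x y i

/-- the palette factor of `okT` -/
def ok2 (t cen k1 k2 k3 : ℕ) : Bool :=
  Nat.beq t 0 || (Vk t cen k1 k2 && (Vk t cen k1 k3 && (Vk t cen k2 k1 &&
    (Vk t cen k2 k3 && (Vk t cen k3 k1 && (Vk t cen k3 k2 &&
    (LBk t k1 k2 && (LBk t k1 k3 && LBk t k2 k3))))))))

/-- what the options of the three neighbours have to satisfy -/
theorem ok2_of {p q1 q2 q3 : Op} {cen : ℕ} (hp : p.2.2 < 64)
    (hE1 : E p q1 = true) (hE2 : E p q2 = true) (hE3 : E p q3 = true)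
    (hV : ∀ q r : Op, (q, r) ∈ [(q1, q2), (q1, q3), (q2, q1), (q2, q3), (q3, q1), (q3, q2)] →
      p.2.2 ≠ 0 → one (Nat.xor p.2.2 (Nat.land p.2.2 q.2.2)) = true → ∀ i : Fin 6,
      (Nat.xor p.2.2 (Nat.land p.2.2 q.2.2)).testBit i = true →
      cen.testBit i = false ∧ r.2.2.testBit i = false)
    (hB : ∀ q r : Op, (q, r) ∈ [(q1, q2), (q1, q3), (q2, q3)] → p.2.2 ≠ 0 → two p.2.2 = true →
      Nat.land p.2.2 q.2.2 = 0 ∨ Nat.land p.2.2 r.2.2 = 0 ∨
        Nat.land p.2.2 q.2.2 = Nat.land p.2.2 r.2.2) :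
    ok2 p.2.2 cen (sm p q1) (sm p q2) (sm p q3) = true := by
  have v : ∀ q r : Op, (q, r) ∈ [(q1, q2), (q1, q3), (q2, q1), (q2, q3), (q3, q1), (q3, q2)] →
      p.2.2 ≠ 0 → E p q = true → E p r = true → Vk p.2.2 cen (sm p q) (sm p r) = true := by
    intro q r hm h0 hq hr
    unfold Vk
    rw [(sm_spec hq hp).1]
    cases ho : one (Nat.xor p.2.2 (Nat.land p.2.2 q.2.2)) with
    | false => rfl
    | true =>
      have h1 := hV q r hm h0 ho
      rw [Bool.not_true, Bool.false_or, Bool.and_eq_true, Nat.beq_eq, Nat.beq_eq]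
      constructor
      · apply land_zero (xor_lt hp)
        intro i hi hc
        rw [(h1 i hi).1] at hc
        exact Bool.false_ne_true hc
      · apply land_zero (xor_lt hp)
        intro i hi hc
        rw [(sm_spec hr hp).2.1, land_bit, (h1 i hi).2, Bool.and_false] at hc
        exact Bool.false_ne_true hc
  have lb : ∀ q r : Op, (q, r) ∈ [(q1, q2), (q1, q3), (q2, q3)] → p.2.2 ≠ 0 → E p q = true →
      E p r = true → LBk p.2.2 (sm p q) (sm p r) = true := by
    intro q r hm h0 hq hr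
    unfold LBk
    rw [(sm_spec hq hp).1, (sm_spec hr hp).1]
    cases ht : two p.2.2 with
    | false => rfl
    | true =>
      rw [Bool.not_true, Bool.false_or, Bool.or_eq_true, Bool.or_eq_true, Nat.beq_eq, Nat.beq_eq,
        Nat.beq_eq]
      exact hB q r hm h0 ht
  unfold ok2
  rw [Bool.or_eq_true, Nat.beq_eq]
  by_cases h0 : p.2.2 = 0
  · exact Or.inl h0
  · right
    simp only [Bool.and_eq_true]
    exact ⟨v q1 q2 (by simp) h0 hE1 hE2, v q1 q3 (by simp) h0 hE1 hE3, v q2 q1 (by simp) h0 hE2 hE1,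
      v q2 q3 (by simp) h0 hE2 hE3, v q3 q1 (by simp) h0 hE3 hE1, v q3 q2 (by simp) h0 hE3 hE2,
      lb q1 q2 (by simp) h0 hE1 hE2, lb q1 q3 (by simp) h0 hE1 hE3, lb q2 q3 (by simp) h0 hE2 hE3⟩

theorem okT_of {p q1 q2 q3 : Op} {cen : ℕ} (hp : p.2.2 < 64)
    (hE1 : E p q1 = true) (hE2 : E p q2 = true) (hE3 : E p q3 = true)
    (hdeg : p.1 ≠ p.2.1 → (Nat.land q1.1 p.2.1 ≠ 0 ∨ Nat.land q2.1 p.2.1 ≠ 0 ∨
      Nat.land q3.1 p.2.1 ≠ 0) ∧ (Nat.land p.1 q1.2.1 ≠ 0 ∨ Nat.land p.1 q2.2.1 ≠ 0 ∨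
      Nat.land p.1 q3.2.1 ≠ 0))
    (h2 : ok2 p.2.2 cen (sm p q1) (sm p q2) (sm p q3) = true) :
    okT p cen (sm p q1) (sm p q2) (sm p q3) = true := by
  unfold okT
  rw [Bool.and_eq_true]
  constructor
  · rw [Bool.or_eq_true, Nat.beq_eq, Nat.beq_eq]
    by_cases hx : p.1 = p.2.1
    · exact Or.inl hx
    · right
      obtain ⟨d1, d2⟩ := hdeg hx
      apply land_192
      · rw [lor_bit, lor_bit, Bool.or_eq_true, Bool.or_eq_true, (sm_spec hE1 hp).2.2.1,
          (sm_spec hE2 hp).2.2.1, (sm_spec hE3 hp).2.2.1]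
        exact d1
      · rw [lor_bit, lor_bit, Bool.or_eq_true, Bool.or_eq_true, (sm_spec hE1 hp).2.2.2,
          (sm_spec hE2 hp).2.2.2, (sm_spec hE3 hp).2.2.2]
        exact d2
  · exact h2

variable {U : Fin 6 → Set ℂ} {T : ℂ → Set (Fin 6)} {z v : ℂ} {a b c d e f : Fin 6}

theorem mk_cl (C : Ctr U T z a b c d e f) (C' : Ctr U T v a c b e d f) (s : Bool) (l : Fin 4) :
    mk (N6 a b c d e f) ((FB C C').cl s l) = LM s l := by
  apply bits_ext (mk_lt _ _) (LM_lt s l)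
  intro i
  have h1 := mk_bit (N6 a b c d e f) ((FB C C').cl s l) i
  have h2 := mem_cl C C' s l i
  cases h3 : (mk (N6 a b c d e f) ((FB C C').cl s l)).testBit i <;>
    cases h4 : (LM s l).testBit i
  · rfl
  · rw [h3] at h1; rw [h4] at h2
    exact absurd (h1.2 (h2.2 rfl)) Bool.false_ne_true
  · rw [h3] at h1; rw [h4] at h2
    exact absurd (h2.1 (h1.1 rfl)) Bool.false_ne_true
  · rfl

open Classical in
/-- the option of a position -/
def opt (C : Ctr U T z a b c d e f) (C' : Ctr U T v a c b e d f) (u : ℝ)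
    (h h' : Fin 6 × Bool → Fin 4) (p : Fin 6 × Bool) : Op :=
  (LM p.2 (h p), LM p.2 (h' p),
    if (∀ m, Av C C' u p m → m = h p) then 0 else mk (N6 a b c d e f) (T (Pt z v u p)))

/-- mask of the centres -/
def cenM (s : Bool) : ℕ := bif s then 23 else 15

theorem cenM_bit (C : Ctr U T z a b c d e f) (C' : Ctr U T v a c b e d f) (p : Fin 6 × Bool)
    (i : Fin 6) (h : (cenM p.2).testBit i = true) : N6 a b c d e f i ∈ T (Cn z v p) := by
  obtain ⟨k, s⟩ := p
  cases s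
  · show _ ∈ T z
    rw [C.pal]
    have h1 : ∀ i : Fin 6, (15 : ℕ).testBit i = true → i = 0 ∨ i = 1 ∨ i = 2 ∨ i = 3 := by decide
    rcases h1 i h with rfl | rfl | rfl | rfl
    · exact Or.inl rfl
    · exact Or.inr (Or.inl rfl)
    · exact Or.inr (Or.inr (Or.inl rfl))
    · exact Or.inr (Or.inr (Or.inr rfl))
  · show _ ∈ T v
    rw [C'.pal]
    have h1 : ∀ i : Fin 6, (23 : ℕ).testBit i = true → i = 0 ∨ i = 2 ∨ i = 1 ∨ i = 4 := by decide
    rcases h1 i h with rfl | rfl | rfl | rfl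
    · exact Or.inl rfl
    · exact Or.inr (Or.inl rfl)
    · exact Or.inr (Or.inr (Or.inl rfl))
    · exact Or.inr (Or.inr (Or.inr rfl))


section

variable (C : Ctr U T z a b c d e f) (C' : Ctr U T v a c b e d f) (u : ℝ)
  (h h' : Fin 6 × Bool → Fin 4)

theorem opt_one (p) : (opt C C' u h h' p).1 = LM p.2 (h p) := rfl
theorem opt_two (p) : (opt C C' u h h' p).2.1 = LM p.2 (h' p) := rfl

theorem opt_lt (p) : (opt C C' u h h' p).2.2 < 64 := by
  classical
  show (if (∀ m, Av C C' u p m → m = h p) then 0 else mk (N6 a b c d e f) (T (Pt z v u p))) < 64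
  split_ifs
  · norm_num
  · exact mk_lt _ _

theorem opt_bit (p) (i : Fin 6) (hb : (opt C C' u h h' p).2.2.testBit i = true) :
    N6 a b c d e f i ∈ T (Pt z v u p) := by
  classical
  change (if (∀ m, Av C C' u p m → m = h p) then 0 else
    mk (N6 a b c d e f) (T (Pt z v u p))).testBit i = true at hb
  split_ifs at hb
  · rw [Nat.zero_testBit] at hb; exact absurd hb Bool.false_ne_true
  · exact (mk_bit _ _ _).1 hb

theorem opt_bit' (p) (h0 : (opt C C' u h h' p).2.2 ≠ 0) (i : Fin 6) :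
    (opt C C' u h h' p).2.2.testBit i = true ↔ N6 a b c d e f i ∈ T (Pt z v u p) := by
  classical
  change (if (∀ m, Av C C' u p m → m = h p) then 0 else
    mk (N6 a b c d e f) (T (Pt z v u p))) ≠ 0 at h0
  show (if (∀ m, Av C C' u p m → m = h p) then 0 else
    mk (N6 a b c d e f) (T (Pt z v u p))).testBit i = true ↔ _
  split_ifs at h0 ⊢
  · exact absurd rfl h0
  · exact mk_bit _ _ _

theorem opt_zero (p) (hav : Av C C' u p (h p)) (h0 : (opt C C' u h h' p).2.2 = 0) :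
    ∀ m, Av C C' u p m → m = h p := by
  classical
  by_contra hcon
  change (if (∀ m, Av C C' u p m → m = h p) then 0 else
    mk (N6 a b c d e f) (T (Pt z v u p))) = 0 at h0
  rw [if_neg hcon] at h0
  have h1 := (mk_bit (N6 a b c d e f) (T (Pt z v u p)))
  obtain ⟨x, hx⟩ := (FB C C').cl_nonempty p.2 (h p)
  obtain ⟨i, rfl⟩ := exists_name C x
  have h2 := (h1 i).2 (av_sub C C' hav hx)
  rw [h0, Nat.zero_testBit] at h2
  exact Bool.false_ne_true h2

/-- the option is in the list -/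
theorem opt_mem (p) (h3 : (T (Pt z v u p)).ncard ≤ 3) (hav : Av C C' u p (h p))
    (hav' : Av C C' u p (h' p)) : opt C C' u h h' p ∈ (bif p.2 then ov else oz) := by
  classical
  obtain ⟨k, s⟩ := p
  have hsub : ∀ l, Av C C' u (k, s) l → ∀ i ∈ LS s l,
      decide (N6 a b c d e f i ∈ T (Pt z v u (k, s))) = true := by
    intro l hl i hi
    have := av_sub C C' hl ((mem_cl C C' s l i).2 ((LM_bit s l i).2 hi))
    simpa using this
  by_cases t1 : (∀ m, Av C C' u (k, s) m → m = h (k, s))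
  · have e1 : opt C C' u h h' (k, s) = (LM s (h (k, s)), LM s (h (k, s)), 0) := by
      unfold opt
      rw [if_pos t1, t1 _ hav']
    rw [e1]
    cases s
    · exact (mem_stat _).1
    · exact (mem_stat _).2
  · have e1 : opt C C' u h h' (k, s) = (LM s (h (k, s)), LM s (h' (k, s)),
        mkB fun i => decide (N6 a b c d e f i ∈ T (Pt z v u (k, s)))) := by
      unfold opt
      rw [if_neg t1]; rfl
    rw [e1]
    push Not at t1
    obtain ⟨m, hm1, hm2⟩ := t1
    cases s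
    · exact mem_oz _ (card_le C h3) m (hsub m hm1) (h (k, false)) hm2
        (hsub _ hav) (h (k, false)) (hsub _ hav) (h' (k, false)) (hsub _ hav')
    · exact mem_ov _ (card_le C h3) m (hsub m hm1) (h (k, true)) hm2
        (hsub _ hav) (h (k, true)) (hsub _ hav) (h' (k, true)) (hsub _ hav')

theorem nb_symm (p : Fin 6 × Bool) (i : Fin 3) : ∃ j, p = Nb (Nb p i) j := by
  have e5 : ∀ k : Fin 6, k = k + 5 + 1 := by decide
  have e1 : ∀ k : Fin 6, k = k + 1 + 5 := by decide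
  fin_cases i
  · exact ⟨1, Prod.ext (e1 p.1) rfl⟩
  · exact ⟨0, Prod.ext (e5 p.1) rfl⟩
  · exact ⟨2, Prod.ext rfl (Bool.not_not p.2).symm⟩

/-- **`E` for a unit pair.** -/
theorem opt_E (hzv : dist z v = 1) (hns : ∀ k : Fin 6, pt z (u + (k.val : ℝ)) ≠ v) (p i)
    (h3 : (T (Pt z v u p)).ncard ≤ 3) (h3' : (T (Pt z v u (Nb p i))).ncard ≤ 3)
    (hav : Av C C' u p (h p)) (hav2 : Av C C' u (Nb p i) (h (Nb p i)))
    (hd : Nat.land (LM p.2 (h p)) (LM (Nb p i).2 (h (Nb p i))) = 0)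
    (hd' : Nat.land (LM p.2 (h' p)) (LM (Nb p i).2 (h' (Nb p i))) = 0) :
    E (opt C C' u h h' p) (opt C C' u h h' (Nb p i)) = true := by
  obtain ⟨g0, g1, g2, g4⟩ := geo hzv hns p
  unfold E
  rw [opt_one, opt_one, opt_two, opt_two, Bool.and_eq_true, Bool.and_eq_true, Nat.beq_eq,
    Nat.beq_eq]
  refine ⟨hd, hd', ?_⟩
  by_cases t1 : (opt C C' u h h' p).2.2 = 0
  · have e1 : Nat.beq (opt C C' u h h' p).2.2 0 = true := by rw [Nat.beq_eq]; exact t1
    rw [e1, cond_true, Nat.beq_eq]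
    apply land_zero (LM_lt _ _)
    intro j h1 h2
    exact W_of C C' hzv hns (opt_zero C C' u h h' p hav t1) ((mem_cl C C' _ _ _).2 h1) i
      (opt_bit C C' u h h' _ _ h2)
  · have e1 : Nat.beq (opt C C' u h h' p).2.2 0 = false := by
      rw [← Bool.not_eq_true, Nat.beq_eq]; exact t1
    rw [e1, cond_false]
    by_cases t2 : (opt C C' u h h' (Nb p i)).2.2 = 0
    · have e2 : Nat.beq (opt C C' u h h' (Nb p i)).2.2 0 = true := by rw [Nat.beq_eq]; exact t2
      rw [e2, cond_true, Nat.beq_eq]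
      apply land_zero (LM_lt _ _)
      intro j h1 h2
      obtain ⟨j', hj'⟩ := nb_symm p i
      have := W_of C C' hzv hns (opt_zero C C' u h h' (Nb p i) hav2 t2)
        ((mem_cl C C' _ _ _).2 h1) j'
      rw [← hj'] at this
      exact this (opt_bit C C' u h h' _ _ h2)
    · have e2 : Nat.beq (opt C C' u h h' (Nb p i)).2.2 0 = false := by
        rw [← Bool.not_eq_true, Nat.beq_eq]; exact t2
      rw [e2, cond_false, Bool.and_eq_true, Bool.not_eq_true', Bool.not_eq_true',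
        ← Bool.not_eq_true, ← Bool.not_eq_true, Nat.beq_eq, Nat.beq_eq]
      constructor
      · intro h0
        refine C.irr.not_sub (x := Pt z v u (Nb p i)) (y := Pt z v u p) (g1 i) h3' ?_
        intro w hw
        obtain ⟨j, rfl⟩ := exists_name C w
        exact (opt_bit' C C' u h h' _ t2 j).1 (of_land_eq h0 j ((opt_bit' C C' u h h' _ t1 j).2 hw))
      · intro h0
        refine C.irr.not_sub (x := Pt z v u p) (y := Pt z v u (Nb p i))
          (by rw [dist_comm]; exact g1 i) h3 ?_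
        intro w hw
        obtain ⟨j, rfl⟩ := exists_name C w
        have h5 : (Nat.land (opt C C' u h h' p).2.2 (opt C C' u h h' (Nb p i)).2.2).testBit j =
            true := by rw [h0]; exact (opt_bit' C C' u h h' _ t2 j).2 hw
        rw [land_bit, Bool.and_eq_true] at h5
        exact (opt_bit' C C' u h h' _ t1 j).1 h5.1

theorem opt_V (hzv : dist z v = 1) (hns : ∀ k : Fin 6, pt z (u + (k.val : ℝ)) ≠ v) (p)
    {i j : Fin 3} (h3 : (T (Pt z v u (Nb p i))).ncard ≤ 3) (hij : i ≠ j)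
    (h0 : (opt C C' u h h' p).2.2 ≠ 0)
    (ho : one (Nat.xor (opt C C' u h h' p).2.2 (Nat.land (opt C C' u h h' p).2.2
      (opt C C' u h h' (Nb p i)).2.2)) = true) (m : Fin 6)
    (hm' : (Nat.xor (opt C C' u h h' p).2.2 (Nat.land (opt C C' u h h' p).2.2
      (opt C C' u h h' (Nb p i)).2.2)).testBit m = true) :
    (cenM p.2).testBit m = false ∧ (opt C C' u h h' (Nb p j)).2.2.testBit m = false := by
  obtain ⟨g0, g1, g2, g4⟩ := geo hzv hns p
  obtain ⟨m', hm1⟩ := one_spec _ (xor_lt (opt_lt C C' u h h' p)) ho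
  obtain rfl : m = m' := (hm1 m).1 hm'
  have hins : T (Pt z v u p) ⊆ insert (N6 a b c d e f m) (T (Pt z v u (Nb p i))) := by
    intro w hw
    obtain ⟨j', rfl⟩ := exists_name C w
    by_cases hj : (opt C C' u h h' (Nb p i)).2.2.testBit j' = true
    · exact Or.inr (opt_bit C C' u h h' _ _ hj)
    · left
      have h5 : j' = m := by
        rw [← hm1, xor_bit, Bool.and_eq_true]
        exact ⟨(opt_bit' C C' u h h' _ h0 j').2 hw, by simpa using hj⟩
      rw [h5]
  have key : ∀ w : ℂ, dist (Pt z v u p) w = 1 → w ≠ Pt z v u (Nb p i) →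
      w + Pt z v u (Nb p i) ≠ 2 * Pt z v u p → N6 a b c d e f m ∉ T w := by
    intro w w1 w2 w3 w4
    rcases C.irr.lemmaX (g1 i) h3 hins w1 (C.irr.sub w w4) with h6 | h6
    · exact w2 h6
    · exact w3 h6
  constructor
  · rw [← Bool.not_eq_true]
    intro hc
    refine key (Cn z v p) g0 (g2 i).1.symm ?_ (cenM_bit C C' p m hc)
    intro h6; exact (g2 i).2 (by rw [← h6]; ring)
  · rw [← Bool.not_eq_true]
    intro hc
    exact key _ (g1 j) (g4 i j hij).1 (g4 i j hij).2 (opt_bit C C' u h h' _ _ hc)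

theorem opt_B (hzv : dist z v = 1) (hns : ∀ k : Fin 6, pt z (u + (k.val : ℝ)) ≠ v) (p)
    {i j : Fin 3} (hij : i ≠ j) (h0 : (opt C C' u h h' p).2.2 ≠ 0)
    (ht : two (opt C C' u h h' p).2.2 = true) :
    Nat.land (opt C C' u h h' p).2.2 (opt C C' u h h' (Nb p i)).2.2 = 0 ∨
    Nat.land (opt C C' u h h' p).2.2 (opt C C' u h h' (Nb p j)).2.2 = 0 ∨
    Nat.land (opt C C' u h h' p).2.2 (opt C C' u h h' (Nb p i)).2.2 =
      Nat.land (opt C C' u h h' p).2.2 (opt C C' u h h' (Nb p j)).2.2 := by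
  obtain ⟨g0, g1, g2, g4⟩ := geo hzv hns p
  obtain ⟨m, n, hmn⟩ := two_spec _ (opt_lt C C' u h h' p) ht
  by_contra hcon
  push Not at hcon
  obtain ⟨c1, c2, c3⟩ := hcon
  have hT : T (Pt z v u p) ⊆ {N6 a b c d e f m, N6 a b c d e f n} := by
    intro w hw
    obtain ⟨j', rfl⟩ := exists_name C w
    rcases (hmn j').1 ((opt_bit' C C' u h h' _ h0 j').2 hw) with rfl | rfl
    · exact Or.inl rfl
    · exact Or.inr rfl
  have key : ∀ x y : Fin 6, T (Pt z v u p) ⊆ {x, y} → x ∈ T (Pt z v u (Nb p i)) →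
      y ∈ T (Pt z v u (Nb p j)) → False := by
    intro x y h5 h6 h7
    rcases C.irr.lemmaB h5 (g1 i) (g1 j) (C.irr.sub _ h6) (C.irr.sub _ h7) with h8 | h8
    · exact (g4 i j hij).1 h8
    · exact (g4 i j hij).2 h8
  have hT' : T (Pt z v u p) ⊆ {N6 a b c d e f n, N6 a b c d e f m} := fun w hw => (hT hw).symm
  have ex : ∀ q : Fin 3, Nat.land (opt C C' u h h' p).2.2 (opt C C' u h h' (Nb p q)).2.2 ≠ 0 →
      N6 a b c d e f m ∈ T (Pt z v u (Nb p q)) ∨ N6 a b c d e f n ∈ T (Pt z v u (Nb p q)) := by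
    intro q hq
    by_contra hcon
    push Not at hcon
    apply hq
    apply land_zero (opt_lt C C' u h h' p)
    intro w w1 w2
    rcases (hmn w).1 w1 with rfl | rfl
    · exact hcon.1 (opt_bit C C' u h h' _ _ w2)
    · exact hcon.2 (opt_bit C C' u h h' _ _ w2)
  have hno1 : ¬ (N6 a b c d e f m ∈ T (Pt z v u (Nb p i)) ∧
      N6 a b c d e f n ∈ T (Pt z v u (Nb p j))) := fun h5 => key _ _ hT h5.1 h5.2
  have hno2 : ¬ (N6 a b c d e f n ∈ T (Pt z v u (Nb p i)) ∧
      N6 a b c d e f m ∈ T (Pt z v u (Nb p j))) := fun h5 => key _ _ hT' h5.1 h5.2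
  have t1 : (opt C C' u h h' (Nb p i)).2.2 ≠ 0 := by
    intro h5; apply c1; rw [h5]; exact Nat.and_zero _
  have t2 : (opt C C' u h h' (Nb p j)).2.2 ≠ 0 := by
    intro h5; apply c2; rw [h5]; exact Nat.and_zero _
  have e1 := ex i c1
  have e2 := ex j c2
  apply c3
  apply bits_ext (land_lt _ (opt_lt C C' u h h' p)) (land_lt _ (opt_lt C C' u h h' p))
  intro w
  rw [land_bit, land_bit]
  cases hw : (opt C C' u h h' p).2.2.testBit w with
  | false => rfl
  | true =>
    rw [Bool.true_and, Bool.true_and]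
    have b1 := opt_bit' C C' u h h' _ t1 w
    have b2 := opt_bit' C C' u h h' _ t2 w
    have hiff : N6 a b c d e f w ∈ T (Pt z v u (Nb p i)) ↔
        N6 a b c d e f w ∈ T (Pt z v u (Nb p j)) := by
      rcases (hmn w).1 hw with rfl | rfl
      · exact ⟨fun k1 => e2.elim id fun k2 => absurd ⟨k1, k2⟩ hno1,
          fun k1 => e1.elim id fun k2 => absurd ⟨k2, k1⟩ hno2⟩
      · exact ⟨fun k1 => e2.elim (fun k2 => absurd ⟨k1, k2⟩ hno2) id,
          fun k1 => e1.elim (fun k2 => absurd ⟨k2, k1⟩ hno1) id⟩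
    cases k1 : (opt C C' u h h' (Nb p i)).2.2.testBit w <;>
      cases k2 : (opt C C' u h h' (Nb p j)).2.2.testBit w
    · rfl
    · rw [k1] at b1; rw [k2] at b2
      exact absurd (b1.2 (hiff.2 (b2.1 rfl))) Bool.false_ne_true
    · rw [k1] at b1; rw [k2] at b2
      exact absurd (b2.2 (hiff.1 (b1.1 rfl))) Bool.false_ne_true
    · rfl

/-- **The palette factor of `okT`**, the three neighbours in any order. -/
theorem opt_ok2 (hzv : dist z v = 1) (hns : ∀ k : Fin 6, pt z (u + (k.val : ℝ)) ≠ v) (p)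
    (h3 : ∀ i, (T (Pt z v u (Nb p i))).ncard ≤ 3)
    (hE : ∀ i, E (opt C C' u h h' p) (opt C C' u h h' (Nb p i)) = true)
    {i j k : Fin 3} (hij : i ≠ j) (hik : i ≠ k) (hjk : j ≠ k) :
    ok2 (opt C C' u h h' p).2.2 (cenM p.2) (sm (opt C C' u h h' p) (opt C C' u h h' (Nb p i)))
        (sm (opt C C' u h h' p) (opt C C' u h h' (Nb p j)))
        (sm (opt C C' u h h' p) (opt C C' u h h' (Nb p k))) = true := by
  have hVV : ∀ i j : Fin 3, i ≠ j → (opt C C' u h h' p).2.2 ≠ 0 →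
      one (Nat.xor (opt C C' u h h' p).2.2 (Nat.land (opt C C' u h h' p).2.2
        (opt C C' u h h' (Nb p i)).2.2)) = true → ∀ m : Fin 6,
      (Nat.xor (opt C C' u h h' p).2.2 (Nat.land (opt C C' u h h' p).2.2
        (opt C C' u h h' (Nb p i)).2.2)).testBit m = true →
      (cenM p.2).testBit m = false ∧ (opt C C' u h h' (Nb p j)).2.2.testBit m = false :=
    fun i j hij h0 ho m hm => opt_V C C' u h h' hzv hns p (h3 i) hij h0 ho m hm
  have hBB : ∀ i j : Fin 3, i ≠ j → (opt C C' u h h' p).2.2 ≠ 0 →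
      two (opt C C' u h h' p).2.2 = true →
      Nat.land (opt C C' u h h' p).2.2 (opt C C' u h h' (Nb p i)).2.2 = 0 ∨
      Nat.land (opt C C' u h h' p).2.2 (opt C C' u h h' (Nb p j)).2.2 = 0 ∨
      Nat.land (opt C C' u h h' p).2.2 (opt C C' u h h' (Nb p i)).2.2 =
        Nat.land (opt C C' u h h' p).2.2 (opt C C' u h h' (Nb p j)).2.2 :=
    fun i j hij h0 ht => opt_B C C' u h h' hzv hns p hij h0 ht
  refine ok2_of (opt_lt C C' u h h' p) (hE i) (hE j) (hE k) ?_ ?_
  · intro q r hqr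
    simp only [List.mem_cons, Prod.mk.injEq, List.not_mem_nil, or_false] at hqr
    rcases hqr with ⟨rfl, rfl⟩ | ⟨rfl, rfl⟩ | ⟨rfl, rfl⟩ | ⟨rfl, rfl⟩ | ⟨rfl, rfl⟩ | ⟨rfl, rfl⟩
    · exact hVV i j hij
    · exact hVV i k hik
    · exact hVV j i hij.symm
    · exact hVV j k hjk
    · exact hVV k i hik.symm
    · exact hVV k j hjk.symm
  · intro q r hqr
    simp only [List.mem_cons, Prod.mk.injEq, List.not_mem_nil, or_false] at hqr
    rcases hqr with ⟨rfl, rfl⟩ | ⟨rfl, rfl⟩ | ⟨rfl, rfl⟩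
    · exact hBB i j hij
    · exact hBB i k hik
    · exact hBB j k hjk

/-- letters of neighbours of a legal selection have disjoint masks -/
theorem leg_mask (hzv : dist z v = 1) (hl : Scc.LegR (FB C C').R h) (p : Fin 6 × Bool) (i : Fin 3) :
    Nat.land (LM p.2 (h p)) (LM (Nb p i).2 (h (Nb p i))) = 0 := by
  have hR := hl p (Nb p i)
  have e5 : ∀ k : Fin 6, k = k + 5 + 1 := by decide
  have hsame : (Nb p i).2 = p.2 → h p ≠ h (Nb p i) →
      Nat.land (LM p.2 (h p)) (LM (Nb p i).2 (h (Nb p i))) = 0 := by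
    intro h1 h2
    rw [h1]
    apply land_zero (LM_lt _ _)
    intro j k1 k2
    exact LM_inj p.2 _ _ h2 j ((LM_bit _ _ _).1 k1) ((LM_bit _ _ _).1 k2)
  fin_cases i
  · exact hsame rfl (hR.1 rfl (Or.inl rfl))
  · exact hsame rfl (hR.1 rfl (Or.inr (e5 p.1)))
  · have hd := hR.2.2 rfl (by
      obtain ⟨k, s⟩ := p
      cases s
      · exact hzv
      · show dist v z = 1
        rw [dist_comm]; exact hzv)
    apply land_zero (LM_lt _ _)
    intro j h1 h2
    exact Set.disjoint_left.1 hd ((mem_cl C C' _ _ _).2 h1) ((mem_cl C C' _ _ _).2 h2)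

end

/-- **The options of the twelve points at one time.** -/
theorem opt_spec (C : Ctr U T z a b c d e f) (C' : Ctr U T v a c b e d f) (hzv : dist z v = 1)
    {u : ℝ} (hns : ∀ k : Fin 6, pt z (u + (k.val : ℝ)) ≠ v)
    (h3 : ∀ p, (T (Pt z v u p)).ncard ≤ 3) {h h' : Fin 6 × Bool → Fin 4}
    (hs : Scc.Sel (FB C C').R (H324.PalX (FB C C').X u) h)
    (hs' : Scc.Sel (FB C C').R (H324.PalX (FB C C').X u) h')
    (hsc : Scc.SC (FB C C').R h h') (hm : ∀ p, h p ≠ h' p → ∃ q, q ≠ p ∧ h q ≠ h' q) :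
    (∀ p, opt C C' u h h' p ∈ (bif p.2 then ov else oz)) ∧
    (∀ p i, E (opt C C' u h h' p) (opt C C' u h h' (Nb p i)) = true) ∧
    ∀ p i j k, i ≠ j → i ≠ k → j ≠ k →
      okT (opt C C' u h h' p) (cenM p.2) (sm (opt C C' u h h' p) (opt C C' u h h' (Nb p i)))
        (sm (opt C C' u h h' p) (opt C C' u h h' (Nb p j)))
        (sm (opt C C' u h h' p) (opt C C' u h h' (Nb p k))) = true := by
  have hE : ∀ p i, E (opt C C' u h h' p) (opt C C' u h h' (Nb p i)) = true := fun p i =>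
    opt_E C C' u h h' hzv hns p i (h3 _) (h3 _) (hs.1 _) (hs.1 _) (leg_mask C C' h hzv hs.2 p i)
      (leg_mask C C' h' hzv hs'.2 p i)
  have hndisj : ∀ p q : Fin 6 × Bool, ∀ x y : Fin 4,
      ¬ Disjoint ((FB C C').cl p.2 x) ((FB C C').cl q.2 y) → Nat.land (LM p.2 x) (LM q.2 y) ≠ 0 := by
    intro p q x y hd h0
    apply hd
    rw [Set.disjoint_left]
    intro w h1 h2
    obtain ⟨i, rfl⟩ := exists_name C w
    exact of_land_zero h0 i ((mem_cl C C' _ _ _).1 h1) ((mem_cl C C' _ _ _).1 h2)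
  refine ⟨fun p => opt_mem C C' u h h' p (h3 p) (hs.1 p) (hs'.1 p), hE, ?_⟩
  intro p i j k hij hik hjk
  refine okT_of (opt_lt C C' u h h' p) (hE p i) (hE p j) (hE p k) ?_
    (opt_ok2 C C' u h h' hzv hns p (fun i => h3 _) (hE p) hij hik hjk)
  intro hch
  have hch' : h p ≠ h' p := by
    intro h5; apply hch; rw [opt_one, opt_two, h5]
  rw [opt_one, opt_one, opt_one, opt_one, opt_two, opt_two, opt_two, opt_two]
  have hall : ∀ m : Fin 3, m = i ∨ m = j ∨ m = k := by
    revert hij hik hjk; revert i j k; decide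
  constructor
  · obtain ⟨q, hq, r, hr, hrd, hreq⟩ := hsc {p} ⟨p, rfl⟩
      (by rintro q rfl; exact hch')
      (by
        obtain ⟨q, hq1, hq2⟩ := hm p hch'
        exact ⟨q, hq1, hq2⟩)
    obtain rfl : q = p := hq
    obtain ⟨-, ⟨m, hm1⟩, hnd⟩ := confl C C' h3 (hs.1 r) (hs'.1 q) hreq
    have hne := hndisj r q _ _ hnd
    rw [hm1] at hne
    rcases hall m with rfl | rfl | rfl
    · exact Or.inl hne
    · exact Or.inr (Or.inl hne)
    · exact Or.inr (Or.inr hne)
  · obtain ⟨q, hq, r, hr, hrd, hreq⟩ := hsc {q | h q ≠ h' q ∧ q ≠ p}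
      (by
        obtain ⟨q, hq1, hq2⟩ := hm p hch'
        exact ⟨q, hq2, hq1⟩)
      (fun q hq => hq.1) ⟨p, fun h5 => h5.2 rfl, hch'⟩
    obtain rfl : r = p := by
      by_contra hne
      exact hr ⟨hrd, hne⟩
    obtain ⟨⟨m, hm1⟩, -, hnd⟩ := confl C C' h3 (hs.1 r) (hs'.1 q) hreq
    have hne := hndisj r q _ _ hnd
    rw [hm1] at hne
    rcases hall m with rfl | rfl | rfl
    · exact Or.inl hne
    · exact Or.inr (Or.inl hne)
    · exact Or.inr (Or.inr hne)

end Vale.Agent.P032.S5.H240
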