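import Vale.Agent.P032.S5.H240.Opt3

/-!
# P032: options of the twelve points, real time form (interface for `H724.BetaMoves`)
-/

open Set Filter Topology Metric

noncomputable section

namespace Vale.Agent.P032.S5.H240

open Vale.Agent.P032.Six Vale.Agent.P032.S5.H767 Vale.Agent.P032.Words
open Vale.Agent.P032.S5.H724 Vale.Agent.P032.S5.H724.Tab

/-- masks of the letters of `z` -/
def lz : Fin 4 → ℕ := ![16, 32, 3, 12]
/-- masks of the letters of `v` -/
def lv : Fin 4 → ℕ := ![8, 32, 5, 18]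

open Classical in
/-- option of a point of `S(z)` -/
def opz (T : ℂ → Set (Fin 6)) (z : ℂ) (a b c d e f : Fin 6) (u : ℝ) (l l' : Fin 4) : Op :=
  (lz l, lz l', if ∃ m, m ≠ l ∧ u ∈ Xs T z a b c d e f m then mk (N6 a b c d e f) (T (pt z u)) else 0)

open Classical in
/-- option of a point of `S(v)` -/
def opv (T : ℂ → Set (Fin 6)) (v : ℂ) (a b c d e f : Fin 6) (u : ℝ) (l l' : Fin 4) : Op :=
  (lv l, lv l', if ∃ m, m ≠ l ∧ u ∈ Xs T v a c b e d f m then mk (N6 a b c d e f) (T (pt v u)) else 0)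

variable {U : Fin 6 → Set ℂ} {T : ℂ → Set (Fin 6)} {z v : ℂ} {a b c d e f : Fin 6}

section

variable (C : Ctr U T z a b c d e f) (C' : Ctr U T v a c b e d f)

theorem opz_per (u : ℝ) (l l' : Fin 4) :
    opz T z a b c d e f (u + 6) l l' = opz T z a b c d e f u l l' := by
  unfold opz
  have h1 : ∀ m, u + 6 ∈ Xs T z a b c d e f m ↔ u ∈ Xs T z a b c d e f m := fun m => by
    show pt z (u + 6) ∈ Lt T z a b c d e f m ↔ pt z u ∈ Lt T z a b c d e f m
    rw [pt_six]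
  have h2 : (∃ m, m ≠ l ∧ u + 6 ∈ Xs T z a b c d e f m) ↔
      (∃ m, m ≠ l ∧ u ∈ Xs T z a b c d e f m) :=
    exists_congr fun m => and_congr_right fun _ => h1 m
  rw [pt_six]
  by_cases hc : ∃ m, m ≠ l ∧ u ∈ Xs T z a b c d e f m
  · rw [if_pos hc, if_pos (h2.2 hc)]
  · rw [if_neg hc, if_neg (fun h => hc (h2.1 h))]

theorem opv_per (u : ℝ) (l l' : Fin 4) :
    opv T v a b c d e f (u + 6) l l' = opv T v a b c d e f u l l' := by
  unfold opv
  have h1 : ∀ m, u + 6 ∈ Xs T v a c b e d f m ↔ u ∈ Xs T v a c b e d f m := fun m => by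
    show pt v (u + 6) ∈ Lt T v a c b e d f m ↔ pt v u ∈ Lt T v a c b e d f m
    rw [pt_six]
  have h2 : (∃ m, m ≠ l ∧ u + 6 ∈ Xs T v a c b e d f m) ↔
      (∃ m, m ≠ l ∧ u ∈ Xs T v a c b e d f m) :=
    exists_congr fun m => and_congr_right fun _ => h1 m
  rw [pt_six]
  by_cases hc : ∃ m, m ≠ l ∧ u ∈ Xs T v a c b e d f m
  · rw [if_pos hc, if_pos (h2.2 hc)]
  · rw [if_neg hc, if_neg (fun h => hc (h2.1 h))]

theorem opt_z (u : ℝ) (h h' : Fin 6 × Bool → Fin 4) (k : Fin 6) :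
    opt C C' u h h' (k, false) =
      opz T z a b c d e f (u + (k.val : ℝ)) (h (k, false)) (h' (k, false)) := by
  classical
  unfold opt opz
  have hiff : (∀ m, Av C C' u (k, false) m → m = h (k, false)) ↔
      ¬ ∃ m, m ≠ h (k, false) ∧ u + (k.val : ℝ) ∈ Xs T z a b c d e f m := by
    constructor
    · rintro h1 ⟨m, h2, h3⟩
      exact h2 (h1 m h3)
    · intro h1 m h2
      by_contra h3
      exact h1 ⟨m, h3, h2⟩
  by_cases hc : ∃ m, m ≠ h (k, false) ∧ u + (k.val : ℝ) ∈ Xs T z a b c d e f m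
  · rw [if_pos hc, if_neg (fun h1 => (hiff.1 h1) hc)]; rfl
  · rw [if_neg hc, if_pos (hiff.2 hc)]; rfl

theorem opt_v (u : ℝ) (h h' : Fin 6 × Bool → Fin 4) (k : Fin 6) :
    opt C C' u h h' (k, true) =
      opv T v a b c d e f (u + (k.val : ℝ)) (h (k, true)) (h' (k, true)) := by
  classical
  unfold opt opv
  have hiff : (∀ m, Av C C' u (k, true) m → m = h (k, true)) ↔
      ¬ ∃ m, m ≠ h (k, true) ∧ u + (k.val : ℝ) ∈ Xs T v a c b e d f m := by
    constructor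
    · rintro h1 ⟨m, h2, h3⟩
      exact h2 (h1 m h3)
    · intro h1 m h2
      by_contra h3
      exact h1 ⟨m, h3, h2⟩
  by_cases hc : ∃ m, m ≠ h (k, true) ∧ u + (k.val : ℝ) ∈ Xs T v a c b e d f m
  · rw [if_pos hc, if_neg (fun h1 => (hiff.1 h1) hc)]; rfl
  · rw [if_neg hc, if_pos (hiff.2 hc)]; rfl

/-- letters at the four positions `(0, z)`, `(1, z)`, `(5, z)`, `(0, v)` etc. -/
def ht (l0 l1 l5 m0 m1 m5 : Fin 4) (p : Fin 6 × Bool) : Fin 4 :=
  bif p.2 then (if p.1 = 0 then m0 else if p.1 = 1 then m1 else m5)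
  else (if p.1 = 0 then l0 else if p.1 = 1 then l1 else l5)

theorem z0 (u : ℝ) (l0 l1 l5 m0 m1 m5 l0' l1' l5' m0' m1' m5' : Fin 4) :
    opt C C' u (ht l0 l1 l5 m0 m1 m5) (ht l0' l1' l5' m0' m1' m5') (0, false) =
      opz T z a b c d e f u l0 l0' := by
  rw [opt_z]
  show opz T z a b c d e f (u + ((0 : ℕ) : ℝ)) l0 l0' = _
  rw [Nat.cast_zero, add_zero]

theorem z1 (u : ℝ) (l0 l1 l5 m0 m1 m5 l0' l1' l5' m0' m1' m5' : Fin 4) :
    opt C C' u (ht l0 l1 l5 m0 m1 m5) (ht l0' l1' l5' m0' m1' m5') (1, false) =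
      opz T z a b c d e f (u + 1) l1 l1' := by
  rw [opt_z]
  show opz T z a b c d e f (u + ((1 : ℕ) : ℝ)) l1 l1' = _
  rw [Nat.cast_one]

theorem z5 (u : ℝ) (l0 l1 l5 m0 m1 m5 l0' l1' l5' m0' m1' m5' : Fin 4) :
    opt C C' u (ht l0 l1 l5 m0 m1 m5) (ht l0' l1' l5' m0' m1' m5') (5, false) =
      opz T z a b c d e f (u - 1) l5 l5' := by
  rw [opt_z]
  show opz T z a b c d e f (u + ((5 : ℕ) : ℝ)) l5 l5' = _
  have h5 : u + ((5 : ℕ) : ℝ) = (u - 1) + 6 := by push_cast; ring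
  rw [h5, opz_per]

theorem v0 (u : ℝ) (l0 l1 l5 m0 m1 m5 l0' l1' l5' m0' m1' m5' : Fin 4) :
    opt C C' u (ht l0 l1 l5 m0 m1 m5) (ht l0' l1' l5' m0' m1' m5') (0, true) =
      opv T v a b c d e f u m0 m0' := by
  rw [opt_v]
  show opv T v a b c d e f (u + ((0 : ℕ) : ℝ)) m0 m0' = _
  rw [Nat.cast_zero, add_zero]

theorem v1 (u : ℝ) (l0 l1 l5 m0 m1 m5 l0' l1' l5' m0' m1' m5' : Fin 4) :
    opt C C' u (ht l0 l1 l5 m0 m1 m5) (ht l0' l1' l5' m0' m1' m5') (1, true) =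
      opv T v a b c d e f (u + 1) m1 m1' := by
  rw [opt_v]
  show opv T v a b c d e f (u + ((1 : ℕ) : ℝ)) m1 m1' = _
  rw [Nat.cast_one]

theorem v5 (u : ℝ) (l0 l1 l5 m0 m1 m5 l0' l1' l5' m0' m1' m5' : Fin 4) :
    opt C C' u (ht l0 l1 l5 m0 m1 m5) (ht l0' l1' l5' m0' m1' m5') (5, true) =
      opv T v a b c d e f (u - 1) m5 m5' := by
  rw [opt_v]
  show opv T v a b c d e f (u + ((5 : ℕ) : ℝ)) m5 m5' = _
  have h5 : u + ((5 : ℕ) : ℝ) = (u - 1) + 6 := by push_cast; ring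
  rw [h5, opv_per]

theorem p0 (s : Bool) (u : ℝ) : Pt z v u (0, s) = pt (bif s then v else z) u := by
  show pt _ (u + ((0 : ℕ) : ℝ)) = _
  rw [Nat.cast_zero, add_zero]

theorem p1 (s : Bool) (u : ℝ) : Pt z v u (1, s) = pt (bif s then v else z) (u + 1) := by
  show pt _ (u + ((1 : ℕ) : ℝ)) = _
  rw [Nat.cast_one]

theorem p5 (s : Bool) (u : ℝ) : Pt z v u (5, s) = pt (bif s then v else z) (u - 1) := by
  show pt _ (u + ((5 : ℕ) : ℝ)) = _
  have h5 : u + ((5 : ℕ) : ℝ) = (u - 1) + 6 := by push_cast; ring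
  rw [h5, pt_six]

include C C'

/-! ### (1) the lists -/

theorem opz_mem {u : ℝ} {l l' : Fin 4} (h3 : (T (pt z u)).ncard ≤ 3)
    (hl : u ∈ Xs T z a b c d e f l) (hl' : u ∈ Xs T z a b c d e f l') :
    opz T z a b c d e f u l l' ∈ oz := by
  have h := opt_mem C C' u (ht l l l l l l) (ht l' l' l' l' l' l') (0, false)
    (by rw [p0]; exact h3)
    (by
      show u + ((0 : ℕ) : ℝ) ∈ Xs T z a b c d e f l
      rw [Nat.cast_zero, add_zero]; exact hl)
    (by
      show u + ((0 : ℕ) : ℝ) ∈ Xs T z a b c d e f l'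
      rw [Nat.cast_zero, add_zero]; exact hl')
  rw [z0] at h
  exact h

theorem opv_mem {u : ℝ} {l l' : Fin 4} (h3 : (T (pt v u)).ncard ≤ 3)
    (hl : u ∈ Xs T v a c b e d f l) (hl' : u ∈ Xs T v a c b e d f l') :
    opv T v a b c d e f u l l' ∈ ov := by
  have h := opt_mem C C' u (ht l l l l l l) (ht l' l' l' l' l' l') (0, true)
    (by rw [p0]; exact h3)
    (by
      show u + ((0 : ℕ) : ℝ) ∈ Xs T v a c b e d f l
      rw [Nat.cast_zero, add_zero]; exact hl)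
    (by
      show u + ((0 : ℕ) : ℝ) ∈ Xs T v a c b e d f l'
      rw [Nat.cast_zero, add_zero]; exact hl')
  rw [v0] at h
  exact h

/-! ### (2) unit pairs -/

omit C C' in
theorem E_comm (p q : Op) (h : E p q = true) : E q p = true := by
  unfold E at h ⊢
  simp only [Bool.and_eq_true, Nat.beq_eq] at h ⊢
  obtain ⟨h1, h2, h3⟩ := h
  refine ⟨by rw [← h1]; exact Nat.land_comm _ _, by rw [← h2]; exact Nat.land_comm _ _, ?_⟩
  by_cases t1 : p.2.2 = 0
  · have e1 : Nat.beq p.2.2 0 = true := by rw [Nat.beq_eq]; exact t1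
    rw [e1, cond_true, Nat.beq_eq] at h3
    by_cases t2 : q.2.2 = 0
    · have e2 : Nat.beq q.2.2 0 = true := by rw [Nat.beq_eq]; exact t2
      rw [e2, cond_true, Nat.beq_eq, t1]; exact Nat.and_zero _
    · have e2 : Nat.beq q.2.2 0 = false := by rw [← Bool.not_eq_true, Nat.beq_eq]; exact t2
      rw [e2, cond_false, e1, cond_true, Nat.beq_eq]; exact h3
  · have e1 : Nat.beq p.2.2 0 = false := by rw [← Bool.not_eq_true, Nat.beq_eq]; exact t1
    rw [e1, cond_false] at h3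
    by_cases t2 : q.2.2 = 0
    · have e2 : Nat.beq q.2.2 0 = true := by rw [Nat.beq_eq]; exact t2
      rw [e2, cond_true, Nat.beq_eq] at h3
      rw [e2, cond_true, Nat.beq_eq]; exact h3
    · have e2 : Nat.beq q.2.2 0 = false := by rw [← Bool.not_eq_true, Nat.beq_eq]; exact t2
      rw [e2, cond_false] at h3
      rw [e2, cond_false, e1, cond_false]
      rw [Bool.and_eq_true] at h3 ⊢
      have hc : Nat.land q.2.2 p.2.2 = Nat.land p.2.2 q.2.2 := Nat.land_comm _ _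
      rw [hc]
      exact ⟨h3.2, h3.1⟩

theorem E_zz (hzv : dist z v = 1) {u : ℝ} (hns : ∀ k : Fin 6, pt z (u + (k.val : ℝ)) ≠ v)
    {l1 l1' l2 l2' : Fin 4} (h3 : (T (pt z u)).ncard ≤ 3) (h3' : (T (pt z (u + 1))).ncard ≤ 3)
    (h1 : u ∈ Xs T z a b c d e f l1) (h2 : u + 1 ∈ Xs T z a b c d e f l2)
    (hd : Nat.land (lz l1) (lz l2) = 0) (hd' : Nat.land (lz l1') (lz l2') = 0) :
    E (opz T z a b c d e f u l1 l1') (opz T z a b c d e f (u + 1) l2 l2') = true := by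
  have h := opt_E C C' u (ht l1 l2 l1 l1 l1 l1) (ht l1' l2' l1' l1' l1' l1') hzv hns (0, false) 0
    (by rw [p0]; exact h3) (by show (T (Pt z v u (1, false))).ncard ≤ 3; rw [p1]; exact h3')
    (by
      show u + ((0 : ℕ) : ℝ) ∈ Xs T z a b c d e f l1
      rw [Nat.cast_zero, add_zero]; exact h1)
    (by
      show u + ((1 : ℕ) : ℝ) ∈ Xs T z a b c d e f l2
      rw [Nat.cast_one]; exact h2) hd hd'
  change E (opt C C' u _ _ (0, false)) (opt C C' u _ _ (1, false)) = true at h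
  rw [z0, z1] at h
  exact h

theorem E_vv (hzv : dist z v = 1) {u : ℝ} (hns : ∀ k : Fin 6, pt z (u + (k.val : ℝ)) ≠ v)
    {l1 l1' l2 l2' : Fin 4} (h3 : (T (pt v u)).ncard ≤ 3) (h3' : (T (pt v (u + 1))).ncard ≤ 3)
    (h1 : u ∈ Xs T v a c b e d f l1) (h2 : u + 1 ∈ Xs T v a c b e d f l2)
    (hd : Nat.land (lv l1) (lv l2) = 0) (hd' : Nat.land (lv l1') (lv l2') = 0) :
    E (opv T v a b c d e f u l1 l1') (opv T v a b c d e f (u + 1) l2 l2') = true := by
  have h := opt_E C C' u (ht l1 l1 l1 l1 l2 l1) (ht l1' l1' l1' l1' l2' l1') hzv hns (0, true) 0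
    (by rw [p0]; exact h3) (by show (T (Pt z v u (1, true))).ncard ≤ 3; rw [p1]; exact h3')
    (by
      show u + ((0 : ℕ) : ℝ) ∈ Xs T v a c b e d f l1
      rw [Nat.cast_zero, add_zero]; exact h1)
    (by
      show u + ((1 : ℕ) : ℝ) ∈ Xs T v a c b e d f l2
      rw [Nat.cast_one]; exact h2) hd hd'
  change E (opt C C' u _ _ (0, true)) (opt C C' u _ _ (1, true)) = true at h
  rw [v0, v1] at h
  exact h

theorem E_zv (hzv : dist z v = 1) {u : ℝ} (hns : ∀ k : Fin 6, pt z (u + (k.val : ℝ)) ≠ v)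
    {l1 l1' l2 l2' : Fin 4} (h3 : (T (pt z u)).ncard ≤ 3) (h3' : (T (pt v u)).ncard ≤ 3)
    (h1 : u ∈ Xs T z a b c d e f l1) (h2 : u ∈ Xs T v a c b e d f l2)
    (hd : Nat.land (lz l1) (lv l2) = 0) (hd' : Nat.land (lz l1') (lv l2') = 0) :
    E (opz T z a b c d e f u l1 l1') (opv T v a b c d e f u l2 l2') = true := by
  have h := opt_E C C' u (ht l1 l1 l1 l2 l1 l1) (ht l1' l1' l1' l2' l1' l1') hzv hns (0, false) 2
    (by rw [p0]; exact h3) (by show (T (Pt z v u (0, true))).ncard ≤ 3; rw [p0]; exact h3')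
    (by
      show u + ((0 : ℕ) : ℝ) ∈ Xs T z a b c d e f l1
      rw [Nat.cast_zero, add_zero]; exact h1)
    (by
      show u + ((0 : ℕ) : ℝ) ∈ Xs T v a c b e d f l2
      rw [Nat.cast_zero, add_zero]; exact h2) hd hd'
  change E (opt C C' u _ _ (0, false)) (opt C C' u _ _ (0, true)) = true at h
  rw [z0, v0] at h
  exact h

/-! ### (3) three neighbours -/

/-- at a point of `S(z)`: neighbours `u + 1`, `u - 1`, parallel, in both orders of `u + 1`, `u - 1` -/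
theorem ok_z (hzv : dist z v = 1) {u : ℝ} (hns : ∀ k : Fin 6, pt z (u + (k.val : ℝ)) ≠ v)
    {l0 l0' l1 l1' l5 l5' m0 m0' : Fin 4} (h31 : (T (pt z (u + 1))).ncard ≤ 3)
    (h35 : (T (pt z (u - 1))).ncard ≤ 3) (h3v : (T (pt v u)).ncard ≤ 3)
    (hE1 : E (opz T z a b c d e f u l0 l0') (opz T z a b c d e f (u + 1) l1 l1') = true)
    (hE5 : E (opz T z a b c d e f u l0 l0') (opz T z a b c d e f (u - 1) l5 l5') = true)
    (hEv : E (opz T z a b c d e f u l0 l0') (opv T v a b c d e f u m0 m0') = true) :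
    ok2 (opz T z a b c d e f u l0 l0').2.2 15
      (sm (opz T z a b c d e f u l0 l0') (opz T z a b c d e f (u + 1) l1 l1'))
      (sm (opz T z a b c d e f u l0 l0') (opz T z a b c d e f (u - 1) l5 l5'))
      (sm (opz T z a b c d e f u l0 l0') (opv T v a b c d e f u m0 m0')) = true ∧
    ok2 (opz T z a b c d e f u l0 l0').2.2 15
      (sm (opz T z a b c d e f u l0 l0') (opz T z a b c d e f (u - 1) l5 l5'))
      (sm (opz T z a b c d e f u l0 l0') (opz T z a b c d e f (u + 1) l1 l1'))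
      (sm (opz T z a b c d e f u l0 l0') (opv T v a b c d e f u m0 m0')) = true := by
  have e0 := z0 C C' u l0 l1 l5 m0 m0 m0 l0' l1' l5' m0' m0' m0'
  have e1 := z1 C C' u l0 l1 l5 m0 m0 m0 l0' l1' l5' m0' m0' m0'
  have e5 := z5 C C' u l0 l1 l5 m0 m0 m0 l0' l1' l5' m0' m0' m0'
  have ev := v0 C C' u l0 l1 l5 m0 m0 m0 l0' l1' l5' m0' m0' m0'
  have h3 : ∀ i, (T (Pt z v u (Nb (0, false) i))).ncard ≤ 3 := by
    intro i
    fin_cases i
    · show (T (Pt z v u (1, false))).ncard ≤ 3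
      rw [p1]; exact h31
    · show (T (Pt z v u (5, false))).ncard ≤ 3
      rw [p5]; exact h35
    · show (T (Pt z v u (0, true))).ncard ≤ 3
      rw [p0]; exact h3v
  have hE : ∀ i, E (opt C C' u (ht l0 l1 l5 m0 m0 m0) (ht l0' l1' l5' m0' m0' m0') (0, false))
      (opt C C' u (ht l0 l1 l5 m0 m0 m0) (ht l0' l1' l5' m0' m0' m0') (Nb (0, false) i)) = true := by
    intro i
    rw [e0]
    fin_cases i
    · show E _ (opt C C' u _ _ (1, false)) = true
      rw [e1]; exact hE1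
    · show E _ (opt C C' u _ _ (5, false)) = true
      rw [e5]; exact hE5
    · show E _ (opt C C' u _ _ (0, true)) = true
      rw [ev]; exact hEv
  have k1 := opt_ok2 C C' u (ht l0 l1 l5 m0 m0 m0) (ht l0' l1' l5' m0' m0' m0') hzv hns (0, false)
    h3 hE (i := 0) (j := 1) (k := 2) (by decide) (by decide) (by decide)
  have k2 := opt_ok2 C C' u (ht l0 l1 l5 m0 m0 m0) (ht l0' l1' l5' m0' m0' m0') hzv hns (0, false)
    h3 hE (i := 1) (j := 0) (k := 2) (by decide) (by decide) (by decide)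
  change ok2 _ _ (sm (opt C C' u _ _ (0, false)) (opt C C' u _ _ (1, false)))
    (sm (opt C C' u _ _ (0, false)) (opt C C' u _ _ (5, false)))
    (sm (opt C C' u _ _ (0, false)) (opt C C' u _ _ (0, true))) = true at k1
  change ok2 _ _ (sm (opt C C' u _ _ (0, false)) (opt C C' u _ _ (5, false)))
    (sm (opt C C' u _ _ (0, false)) (opt C C' u _ _ (1, false)))
    (sm (opt C C' u _ _ (0, false)) (opt C C' u _ _ (0, true))) = true at k2
  rw [e0, e1, e5, ev] at k1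
  rw [e0, e1, e5, ev] at k2
  exact ⟨k1, k2⟩

/-- at a point of `S(v)` -/
theorem ok_v (hzv : dist z v = 1) {u : ℝ} (hns : ∀ k : Fin 6, pt z (u + (k.val : ℝ)) ≠ v)
    {l0 l0' l1 l1' l5 l5' m0 m0' : Fin 4} (h31 : (T (pt v (u + 1))).ncard ≤ 3)
    (h35 : (T (pt v (u - 1))).ncard ≤ 3) (h3z : (T (pt z u)).ncard ≤ 3)
    (hE1 : E (opv T v a b c d e f u l0 l0') (opv T v a b c d e f (u + 1) l1 l1') = true)
    (hE5 : E (opv T v a b c d e f u l0 l0') (opv T v a b c d e f (u - 1) l5 l5') = true)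
    (hEz : E (opv T v a b c d e f u l0 l0') (opz T z a b c d e f u m0 m0') = true) :
    ok2 (opv T v a b c d e f u l0 l0').2.2 23
      (sm (opv T v a b c d e f u l0 l0') (opv T v a b c d e f (u + 1) l1 l1'))
      (sm (opv T v a b c d e f u l0 l0') (opv T v a b c d e f (u - 1) l5 l5'))
      (sm (opv T v a b c d e f u l0 l0') (opz T z a b c d e f u m0 m0')) = true ∧
    ok2 (opv T v a b c d e f u l0 l0').2.2 23
      (sm (opv T v a b c d e f u l0 l0') (opv T v a b c d e f (u - 1) l5 l5'))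
      (sm (opv T v a b c d e f u l0 l0') (opv T v a b c d e f (u + 1) l1 l1'))
      (sm (opv T v a b c d e f u l0 l0') (opz T z a b c d e f u m0 m0')) = true := by
  have e0 := v0 C C' u m0 m0 m0 l0 l1 l5 m0' m0' m0' l0' l1' l5'
  have e1 := v1 C C' u m0 m0 m0 l0 l1 l5 m0' m0' m0' l0' l1' l5'
  have e5 := v5 C C' u m0 m0 m0 l0 l1 l5 m0' m0' m0' l0' l1' l5'
  have ez := z0 C C' u m0 m0 m0 l0 l1 l5 m0' m0' m0' l0' l1' l5'
  have h3 : ∀ i, (T (Pt z v u (Nb (0, true) i))).ncard ≤ 3 := by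
    intro i
    fin_cases i
    · show (T (Pt z v u (1, true))).ncard ≤ 3
      rw [p1]; exact h31
    · show (T (Pt z v u (5, true))).ncard ≤ 3
      rw [p5]; exact h35
    · show (T (Pt z v u (0, false))).ncard ≤ 3
      rw [p0]; exact h3z
  have hE : ∀ i, E (opt C C' u (ht m0 m0 m0 l0 l1 l5) (ht m0' m0' m0' l0' l1' l5') (0, true))
      (opt C C' u (ht m0 m0 m0 l0 l1 l5) (ht m0' m0' m0' l0' l1' l5') (Nb (0, true) i)) = true := by
    intro i
    rw [e0]
    fin_cases i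
    · show E _ (opt C C' u _ _ (1, true)) = true
      rw [e1]; exact hE1
    · show E _ (opt C C' u _ _ (5, true)) = true
      rw [e5]; exact hE5
    · show E _ (opt C C' u _ _ (0, false)) = true
      rw [ez]; exact hEz
  have k1 := opt_ok2 C C' u (ht m0 m0 m0 l0 l1 l5) (ht m0' m0' m0' l0' l1' l5') hzv hns (0, true)
    h3 hE (i := 0) (j := 1) (k := 2) (by decide) (by decide) (by decide)
  have k2 := opt_ok2 C C' u (ht m0 m0 m0 l0 l1 l5) (ht m0' m0' m0' l0' l1' l5') hzv hns (0, true)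
    h3 hE (i := 1) (j := 0) (k := 2) (by decide) (by decide) (by decide)
  change ok2 _ _ (sm (opt C C' u _ _ (0, true)) (opt C C' u _ _ (1, true)))
    (sm (opt C C' u _ _ (0, true)) (opt C C' u _ _ (5, true)))
    (sm (opt C C' u _ _ (0, true)) (opt C C' u _ _ (0, false))) = true at k1
  change ok2 _ _ (sm (opt C C' u _ _ (0, true)) (opt C C' u _ _ (5, true)))
    (sm (opt C C' u _ _ (0, true)) (opt C C' u _ _ (1, true)))
    (sm (opt C C' u _ _ (0, true)) (opt C C' u _ _ (0, false))) = true at k2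
  rw [e0, e1, e5, ez] at k1
  rw [e0, e1, e5, ez] at k2
  exact ⟨k1, k2⟩

end

end Vale.Agent.P032.S5.H240
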